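import Vale.Agent.P267.H775.VdB
import Mathlib.LinearAlgebra.Matrix.BilinearForm
import Mathlib.LinearAlgebra.Matrix.NonsingularInverse

/-!
# P267, block C: the diagonal basis, matrix form

`G` is the intersection matrix of `N` classes `c_i`, `κ_i = K · c_i`, `t` the coordinates of `K`.
-/

open Matrix Module

namespace Vale.Agent.P267.BlockC

variable {N : ℕ}

/-- the integral bilinear form of a matrix -/
noncomputable def gform (G : Matrix (Fin N) (Fin N) ℤ) : LinearMap.BilinForm ℤ (Fin N → ℤ) :=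
  Matrix.toBilin' G

theorem gform_apply (G : Matrix (Fin N) (Fin N) ℤ) (x y : Fin N → ℤ) :
    gform G x y = x ⬝ᵥ G *ᵥ y := by
  rw [gform, Matrix.toBilin'_apply']

theorem gform_bijective (G : Matrix (Fin N) (Fin N) ℤ) (hdet : IsUnit G.det) :
    Function.Bijective (gform G : (Fin N → ℤ) → Module.Dual ℤ (Fin N → ℤ)) := by
  have hu : IsUnit G := (Matrix.isUnit_iff_isUnit_det G).2 hdet
  obtain ⟨H, hH1, hH2⟩ : ∃ H : Matrix (Fin N) (Fin N) ℤ, G * H = 1 ∧ H * G = 1 := by
    obtain ⟨u, rfl⟩ := hu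
    exact ⟨↑u⁻¹, by simp, by simp⟩
  constructor
  · intro x y hxy
    have h1 : ∀ z, x ⬝ᵥ G *ᵥ z = y ⬝ᵥ G *ᵥ z := by
      intro z
      rw [← gform_apply, ← gform_apply]
      exact congrArg (fun f : Module.Dual ℤ (Fin N → ℤ) => f z) hxy
    ext i
    have h2 := h1 (H *ᵥ Pi.single i 1)
    rw [Matrix.mulVec_mulVec, hH1, Matrix.one_mulVec] at h2
    simpa using h2
  · intro f
    refine ⟨(fun i => f (Pi.single i 1)) ᵥ* H, ?_⟩
    refine LinearMap.pi_ext' fun i => ?_
    ext
    simp only [LinearMap.coe_comp, Function.comp_apply, LinearMap.single_apply]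
    rw [gform_apply, Matrix.dotProduct_mulVec, Matrix.vecMul_vecMul, hH2, Matrix.vecMul_one]
    simp

/-- **The diagonal basis.** -/
theorem diag_basis (G : Matrix (Fin N) (Fin N) ℤ) (hsym : ∀ i j, G i j = G j i)
    (hdet : IsUnit G.det) (hneg : ∀ x : Fin N → ℤ, x ≠ 0 → x ⬝ᵥ G *ᵥ x < 0)
    (t κ : Fin N → ℂ) (hκ : ∀ i, κ i = ∑ j, (G i j : ℂ) * t j)
    (hrr : ∀ x : Fin N → ℤ, ∃ k : ℕ, ((x ⬝ᵥ G *ᵥ x : ℤ) : ℂ) - ∑ i, (x i : ℂ) * κ i = -2 * k)
    (hKK : ∑ i, t i * κ i = -(N : ℂ)) :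
    ∃ b : Basis (Fin N) ℤ (Fin N → ℤ),
      (∀ i j, b i ⬝ᵥ G *ᵥ b j = if i = j then -1 else 0) ∧
      ∀ i, ∑ j, (b i j : ℂ) * κ j = -1 := by
  classical
  have hs : ∀ x y, gform G x y = gform G y x := by
    intro x y
    rw [gform_apply, gform_apply, Matrix.dotProduct_mulVec, ← Matrix.mulVec_transpose,
      dotProduct_comm]
    congr 1
    have : Gᵀ = G := by
      ext i j
      exact hsym j i
    rw [this]
  have hu := gform_bijective G hdet
  -- `K` is integral
  have hint : ∀ x : Fin N → ℤ, ∃ z : ℤ, ∑ i, (x i : ℂ) * κ i = z := by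
    intro x
    obtain ⟨k, hk⟩ := hrr x
    refine ⟨x ⬝ᵥ G *ᵥ x + 2 * k, ?_⟩
    push_cast at hk ⊢
    linear_combination -hk
  have hint' : ∀ i, ∃ z : ℤ, κ i = z := by
    intro i
    obtain ⟨z, hz⟩ := hint (Pi.single i 1)
    refine ⟨z, ?_⟩
    rw [← hz, Finset.sum_eq_single i]
    · simp
    · intro j _ hj
      simp [hj]
    · simp
  choose kz hkz using hint'
  obtain ⟨K, hK⟩ := hu.2 (∑ i, kz i • LinearMap.proj i : Module.Dual ℤ (Fin N → ℤ))
  have hKx : ∀ x, gform G x K = ∑ i, x i * kz i := by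
    intro x
    rw [hs, hK]
    simp [mul_comm]
  -- coordinates of `K`
  have htK : ∀ i, t i = K i := by
    obtain ⟨H, hH1, hH2⟩ : ∃ H : Matrix (Fin N) (Fin N) ℤ, G * H = 1 ∧ H * G = 1 := by
      obtain ⟨u, hu'⟩ := (Matrix.isUnit_iff_isUnit_det G).2 hdet
      exact ⟨↑u⁻¹, by rw [← hu']; simp, by rw [← hu']; simp⟩
    have h1 : ∀ i, (kz i : ℂ) = ∑ j, (G i j : ℂ) * t j := fun i => by rw [← hkz, hκ]
    have h2 : ∀ i, kz i = ∑ j, G i j * K j := by
      intro i
      have hs1 : ∀ v : Fin N → ℤ, ∑ x, (Pi.single i 1 : Fin N → ℤ) x * v x = v i := by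
        intro v
        rw [Finset.sum_eq_single i]
        · simp
        · intro j _ hj
          simp [hj]
        · simp
      have h3 := hKx (Pi.single i 1)
      rw [hs1 kz] at h3
      rw [← h3, gform_apply]
      exact hs1 (G *ᵥ K)
    intro i
    have h3 : ∀ a b : Fin N, ∑ j, (H a j : ℂ) * (G j b : ℂ) = if a = b then 1 else 0 := by
      intro a b
      have := congrFun (congrFun hH2 a) b
      rw [Matrix.mul_apply, Matrix.one_apply] at this
      exact_mod_cast this
    have h4 : t i = ∑ j, (H i j : ℂ) * (kz j : ℂ) := by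
      calc t i = ∑ b, (if i = b then 1 else 0) * t b := by simp
        _ = ∑ b, (∑ j, (H i j : ℂ) * (G j b : ℂ)) * t b := by simp_rw [h3]
        _ = ∑ b, ∑ j, (H i j : ℂ) * (G j b : ℂ) * t b := by simp_rw [Finset.sum_mul]
        _ = ∑ j, ∑ b, (H i j : ℂ) * (G j b : ℂ) * t b := Finset.sum_comm
        _ = ∑ j, (H i j : ℂ) * (kz j : ℂ) := by
          refine Finset.sum_congr rfl fun j _ => ?_
          rw [h1, Finset.mul_sum]
          exact Finset.sum_congr rfl fun b _ => by ring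
    rw [h4]
    have h5 : ∑ j, H i j * kz j = K i := by
      calc ∑ j, H i j * kz j = ∑ j, ∑ b, H i j * (G j b * K b) := by
            refine Finset.sum_congr rfl fun j _ => ?_
            rw [h2, Finset.mul_sum]
        _ = ∑ b, ∑ j, H i j * (G j b * K b) := Finset.sum_comm
        _ = ∑ b, (∑ j, H i j * G j b) * K b := by
          refine Finset.sum_congr rfl fun b _ => ?_
          rw [Finset.sum_mul]
          exact Finset.sum_congr rfl fun j _ => by ring
        _ = ∑ b, (if i = b then 1 else 0) * K b := by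
          refine Finset.sum_congr rfl fun b _ => ?_
          have := congrFun (congrFun hH2 i) b
          rw [Matrix.mul_apply, Matrix.one_apply] at this
          rw [this]
        _ = K i := by simp
    exact_mod_cast h5
  have hcast : ∀ x : Fin N → ℤ, ∑ i, (x i : ℂ) * κ i = (gform G x K : ℤ) := by
    intro x
    rw [hKx]
    push_cast
    exact Finset.sum_congr rfl fun i _ => by rw [hkz]
  have hrr' : ∀ x : Fin N → ℤ, ∃ k : ℕ, gform G x x - gform G x K = -2 * k := by
    intro x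
    obtain ⟨k, hk⟩ := hrr x
    refine ⟨k, ?_⟩
    rw [hcast, ← gform_apply] at hk
    exact_mod_cast hk
  have hKK' : gform G K K = -(N : ℤ) := by
    have h1 := hcast K
    have h2 : ∑ i, (K i : ℂ) * κ i = -(N : ℂ) := by
      rw [← hKK]
      exact Finset.sum_congr rfl fun i _ => by rw [htK]
    rw [h1] at h2
    exact_mod_cast h2
  have hrank : finrank ℤ (Fin N → ℤ) = N := by simp
  obtain ⟨⟨b, hb1, hb2, -⟩, -⟩ := Vale.Agent.P267.H775.canonical_basis (gform G) hs hu
    (fun x hx => by rw [gform_apply]; exact hneg x hx) K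
    (fun x => by
      obtain ⟨k, hk⟩ := hrr' x
      exact ⟨k, by linarith⟩)
    (fun x => by
      obtain ⟨k, hk⟩ := hrr' x
      have : (0 : ℤ) ≤ k := Int.natCast_nonneg k
      linarith)
    (Or.inl (by rw [hrank, hKK']))
  let b' := b.reindex (finCongr hrank)
  refine ⟨b', fun i j => ?_, fun i => ?_⟩
  · rw [← gform_apply, Basis.reindex_apply, Basis.reindex_apply, hb1]
    simp only [EmbeddingLike.apply_eq_iff_eq]
  · rw [hcast, hs, Basis.reindex_apply, hb2]
    simp

end Vale.Agent.P267.BlockC
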