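import Mathlib

/-!
# P267: the class of a curve with `∑ x_b² + ∑ x_b = 2`

`∑ x_b (x_b + 1) = 2`, `x` of finite support, implies `x = 1_h - 1_I` or `x = -2·1_h - 1_I` with
`h ∉ I`; two classes of the first kind with the same head have positive pairing.
-/

namespace Vale.Agent.P267.H283

variable {β : Type*} [DecidableEq β]

theorem mul_succ_nonneg (t : ℤ) : 0 ≤ t * (t + 1) := by
  rcases le_or_gt 0 t with h | h
  · positivity
  · have h1 : t + 1 ≤ 0 := by omega
    nlinarith

theorem mul_succ_cases {t : ℤ} (h : t * (t + 1) ≤ 2) : t = 0 ∨ t = -1 ∨ t = 1 ∨ t = -2 := by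
  have h1 : t ≤ 1 := by nlinarith
  have h2 : -2 ≤ t := by nlinarith
  omega

/-- **The class of a curve.** -/
theorem head_cases {x : β → ℤ} (hfin : (Function.support x).Finite)
    (hx : ∑ᶠ b, x b ^ 2 + ∑ᶠ b, x b = 2) :
    (∃ (h : β) (I : Finset β), h ∉ I ∧
      ∀ b, x b = (if b = h then 1 else 0) - (if b ∈ I then 1 else 0)) ∨
    (∃ (h : β) (I : Finset β), h ∉ I ∧
      ∀ b, x b = (if b = h then -2 else 0) - (if b ∈ I then 1 else 0)) := by
  classical
  set S : Finset β := hfin.toFinset with hS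
  have hmem : ∀ b, b ∈ S ↔ x b ≠ 0 := fun b => by
    rw [hS, Set.Finite.mem_toFinset, Function.mem_support]
  have e1 : ∑ᶠ b, x b ^ 2 = ∑ b ∈ S, x b ^ 2 := by
    refine finsum_eq_sum_of_support_subset _ fun b hb => ?_
    rw [Finset.mem_coe, hmem]
    intro h0
    rw [Function.mem_support, h0] at hb
    exact hb (by norm_num)
  have e2 : ∑ᶠ b, x b = ∑ b ∈ S, x b :=
    finsum_eq_sum_of_support_subset _ fun b hb => (by
      rw [Finset.mem_coe, hmem]; exact hb)
  have e3 : ∑ b ∈ S, x b * (x b + 1) = 2 := by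
    rw [← hx, e1, e2, ← Finset.sum_add_distrib]
    exact Finset.sum_congr rfl fun b _ => by ring
  -- there is an index with a nonzero term
  obtain ⟨h, hhS, hh⟩ : ∃ h ∈ S, x h * (x h + 1) ≠ 0 := by
    by_contra hcon
    push Not at hcon
    rw [Finset.sum_eq_zero hcon] at e3
    norm_num at e3
  have hle : x h * (x h + 1) ≤ 2 := by
    rw [← e3]
    exact Finset.single_le_sum (f := fun b => x b * (x b + 1))
      (fun b _ => mul_succ_nonneg _) hhS
  have hh2 : x h * (x h + 1) = 2 := by
    rcases mul_succ_cases hle with h1 | h1 | h1 | h1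
    · rw [h1] at hh
      exact absurd rfl hh
    · rw [h1] at hh
      exact absurd rfl hh
    · rw [h1]
      norm_num
    · rw [h1]
      norm_num
  have hrest : ∀ b ∈ S, b ≠ h → x b = -1 := by
    intro b hb hbh
    have h1 : ∑ c ∈ S.erase h, x c * (x c + 1) = 0 := by
      rw [← Finset.add_sum_erase S _ hhS, hh2] at e3
      linarith
    have h2 := (Finset.sum_eq_zero_iff_of_nonneg (fun c _ => mul_succ_nonneg (x c))).1 h1 b
      (Finset.mem_erase.2 ⟨hbh, hb⟩)
    rcases mul_eq_zero.1 h2 with h3 | h3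
    · exact absurd h3 ((hmem b).1 hb)
    · linarith
  have hI : ∀ b, b ∉ S → x b = 0 := fun b hb => by
    by_contra h1
    exact hb ((hmem b).2 h1)
  have hval : x h = 1 ∨ x h = -2 := by
    rcases mul_succ_cases hle with h1 | h1 | h1 | h1
    · rw [h1] at hh; norm_num at hh
    · rw [h1] at hh; norm_num at hh
    · exact Or.inl h1
    · exact Or.inr h1
  have key : ∀ v : ℤ, x h = v → ∀ b, x b = (if b = h then v else 0) -
      (if b ∈ S.erase h then 1 else 0) := by
    intro v hv b
    by_cases hb : b = h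
    · subst hb
      simp [hv]
    · rw [if_neg hb]
      by_cases hbS : b ∈ S
      · rw [if_pos (Finset.mem_erase.2 ⟨hb, hbS⟩), hrest b hbS hb]
        norm_num
      · rw [if_neg fun h1 => hbS (Finset.mem_of_mem_erase h1), hI b hbS]
        norm_num
  rcases hval with h1 | h1
  · exact Or.inl ⟨h, S.erase h, Finset.notMem_erase _ _, key 1 h1⟩
  · exact Or.inr ⟨h, S.erase h, Finset.notMem_erase _ _, key (-2) h1⟩

/-- pairing of two classes `1_h - 1_I`, `1_h - 1_J` -/
theorem head_pair {x y : β → ℤ} {h : β} {I J : Finset β} (hI : h ∉ I) (hJ : h ∉ J)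
    (hx : ∀ b, x b = (if b = h then 1 else 0) - (if b ∈ I then 1 else 0))
    (hy : ∀ b, y b = (if b = h then 1 else 0) - (if b ∈ J then 1 else 0)) :
    ∑ᶠ b, x b * y b = 1 + (I ∩ J).card := by
  have h1 : ∀ b, x b * y b = (if b = h then 1 else 0) + (if b ∈ I ∩ J then 1 else 0) := by
    intro b
    rw [hx, hy]
    by_cases hb : b = h
    · subst hb
      simp [hI, hJ]
    · simp only [if_neg hb, Finset.mem_inter]
      by_cases h2 : b ∈ I <;> by_cases h3 : b ∈ J <;> simp [h2, h3]
  rw [finsum_congr h1]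
  have h2 : (Function.support fun b : β => (if b = h then 1 else 0) +
      (if b ∈ I ∩ J then (1 : ℤ) else 0)) ⊆ ((insert h (I ∩ J) : Finset β) : Set β) := by
    intro b hb
    rw [Finset.mem_coe, Finset.mem_insert]
    by_contra h3
    push Not at h3
    rw [Function.mem_support, if_neg h3.1, if_neg h3.2] at hb
    exact hb (by norm_num)
  rw [finsum_eq_sum_of_support_subset _ h2, Finset.sum_insert (by simp [hI])]
  rw [Finset.sum_congr rfl (g := fun _ => (1 : ℤ))]
  · simp [hI]
  · intro b hb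
    have hbh : b ≠ h := by
      rintro rfl
      exact hI (Finset.mem_inter.1 hb).1
    rw [if_neg hbh, if_pos hb]
    norm_num

theorem head_pair_pos {x y : β → ℤ} {h : β} {I J : Finset β} (hI : h ∉ I) (hJ : h ∉ J)
    (hx : ∀ b, x b = (if b = h then 1 else 0) - (if b ∈ I then 1 else 0))
    (hy : ∀ b, y b = (if b = h then 1 else 0) - (if b ∈ J then 1 else 0)) :
    1 ≤ ∑ᶠ b, x b * y b := by
  rw [head_pair hI hJ hx hy]
  have : (0 : ℤ) ≤ ((I ∩ J).card : ℤ) := by positivity
  linarith

end Vale.Agent.P267.H283
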